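import Vale.Agent.P245.H663.Transport

/-!
# The quadratic transport inequality for transports with bounded stretch

`BoundedStretchTransport μ D`: for every `M ≥ 1`, every smooth `T : ℝⁿ → ℝⁿ` whose derivative is
everywhere symmetric, positive definite and at most `M` (that is `T = ∇Φ`, `0 < D²Φ ≤ M`), and
every density `g ≥ 0` with `T_# μ = g μ` and `g log g` integrable, `T` displaces `μ` by at most
`∫ |T x - x|² dμ ≤ D M Ent_μ(g)`.
-/

open MeasureTheory Matrix
open scoped ContDiff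

noncomputable section

namespace Vale.Agent.P245.H663

open Vale.Agent.P245

/-- The quadratic transport inequality, with constant `D M`, along all transports `T = ∇Φ` with
`0 < D²Φ ≤ M`. -/
def BoundedStretchTransport {n : ℕ} (μ : Measure (EuclideanSpace ℝ (Fin n))) (D : ℝ) : Prop :=
  ∀ M : ℝ, 1 ≤ M → ∀ T : EuclideanSpace ℝ (Fin n) → EuclideanSpace ℝ (Fin n), ContDiff ℝ ∞ T →
    (∀ x v w, inner ℝ (fderiv ℝ T x v) w = inner ℝ v (fderiv ℝ T x w)) →
    (∀ x v, v ≠ 0 → 0 < inner ℝ (fderiv ℝ T x v) v) →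
    (∀ x v, inner ℝ (fderiv ℝ T x v) v ≤ M * ‖v‖ ^ 2) →
    ∀ g : EuclideanSpace ℝ (Fin n) → ℝ, Measurable g → (∀ x, 0 ≤ g x) →
      μ.map T = μ.withDensity (fun x => ENNReal.ofReal (g x)) →
      Integrable (fun x => g x * Real.log (g x)) μ →
      ∫ x, ‖T x - x‖ ^ 2 ∂μ ≤ D * M * Entropy μ g

/-- Talagrand's inequality along transports with bounded stretch: if the log-concave, linearly
`a`-subgaussian probability measure `μ` has Poincaré constant `Λ`, the constant is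
`6 (Λ + a²) M`. -/
theorem block {n : ℕ} {μ : Measure (EuclideanSpace ℝ (Fin n))} [IsProbabilityMeasure μ]
    (hlc : HasLogConcaveDensity μ) {a Λ : ℝ} (ha : 0 < a) (hsub : LinearlySubgaussian μ a)
    (hΛ : 0 ≤ Λ)
    (hP : ∀ f : EuclideanSpace ℝ (Fin n) → ℝ, ContDiff ℝ ∞ f → HasCompactSupport f →
      (∫ x, f x ^ 2 ∂μ) - (∫ x, f x ∂μ) ^ 2 ≤ Λ * ∫ x, ‖gradient f x‖ ^ 2 ∂μ) :
    BoundedStretchTransport μ (6 * (Λ + a ^ 2)) := by
  intro M hM T hT hs hp hl g hg hg0 hmap hint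
  have h := transport hlc ha hsub hΛ hP hM (T := T) ⟨hT, hs, hp, hl⟩ hg hg0 hmap hint
  have h1 := congrArg (fun ν : Measure (EuclideanSpace ℝ (Fin n)) => ν Set.univ) hmap
  rw [Measure.map_apply hT.continuous.measurable MeasurableSet.univ, Set.preimage_univ,
    measure_univ, withDensity_apply _ MeasurableSet.univ, setLIntegral_univ] at h1
  have hg1 : ∫ x, g x ∂μ = 1 := by
    rw [integral_eq_lintegral_of_nonneg_ae (Filter.Eventually.of_forall hg0)
      hg.aestronglyMeasurable, ← h1]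
    simp
  unfold Entropy
  rw [hg1, Real.log_one, mul_zero, sub_zero]
  calc ∫ x, ‖T x - x‖ ^ 2 ∂μ ≤ 6 * M * (Λ + a ^ 2) * ∫ x, g x * Real.log (g x) ∂μ := h
    _ = 6 * (Λ + a ^ 2) * M * ∫ x, g x * Real.log (g x) ∂μ := by ring

/-- The same with `Λ = C a²` and one constant. -/
theorem block' {n : ℕ} {μ : Measure (EuclideanSpace ℝ (Fin n))} [IsProbabilityMeasure μ]
    (hlc : HasLogConcaveDensity μ) {a C : ℝ} (ha : 0 < a) (hsub : LinearlySubgaussian μ a)
    (hC : 0 ≤ C)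
    (hP : ∀ f : EuclideanSpace ℝ (Fin n) → ℝ, ContDiff ℝ ∞ f → HasCompactSupport f →
      (∫ x, f x ^ 2 ∂μ) - (∫ x, f x ∂μ) ^ 2 ≤ C * a ^ 2 * ∫ x, ‖gradient f x‖ ^ 2 ∂μ) :
    BoundedStretchTransport μ (6 * (C + 1) * a ^ 2) := by
  have h := block hlc ha hsub (by positivity) hP
  have e : 6 * (C * a ^ 2 + a ^ 2) = 6 * (C + 1) * a ^ 2 := by ring
  rwa [e] at h

end Vale.Agent.P245.H663
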