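import Vale.Agent.P245.H663.Mat
import Vale.Agent.P245.H607.Ext

/-!
P245, transports with bounded stretch (helper663), part 2: the map and its Jacobian.
-/

open MeasureTheory Set Filter Topology Matrix
open scoped ENNReal NNReal ContDiff

noncomputable section

namespace Vale.Agent.P245.H663

variable {n : ℕ}

/-- Euclidean space -/
abbrev E (n : ℕ) := EuclideanSpace ℝ (Fin n)

/-- the matrix of a linear map -/
def jm (L : E n →L[ℝ] E n) : Matrix (Fin n) (Fin n) ℝ :=
  Matrix.of fun i j => (L (EuclideanSpace.single j (1 : ℝ))) i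

theorem fun_apply (φ : E n →L[ℝ] ℝ) (v : E n) :
    φ v = ∑ j, v j * φ (EuclideanSpace.single j (1 : ℝ)) := by
  conv_lhs => rw [← (EuclideanSpace.basisFun (Fin n) ℝ).sum_repr v]
  rw [map_sum]
  refine Finset.sum_congr rfl fun j _ => ?_
  rw [map_smul, smul_eq_mul]
  simp

theorem jm_mulVec (L : E n →L[ℝ] E n) (v : Fin n → ℝ) :
    (jm L) *ᵥ v = fun i => (L (WithLp.toLp 2 v)) i := by
  funext i
  have h := fun_apply ((EuclideanSpace.proj i : E n →L[ℝ] ℝ).comp L) (WithLp.toLp 2 v)
  change (L (WithLp.toLp 2 v)) i = ∑ j, v j * (L (EuclideanSpace.single j (1 : ℝ))) i at h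
  rw [h]
  simp only [Matrix.mulVec, dotProduct, jm, Matrix.of_apply]
  exact Finset.sum_congr rfl fun j _ => mul_comm _ _

theorem det_jm (L : E n →L[ℝ] E n) : L.det = (jm L).det := by
  have h := LinearMap.det_toMatrix (EuclideanSpace.basisFun (Fin n) ℝ).toBasis (L : E n →ₗ[ℝ] E n)
  have e : LinearMap.toMatrix (EuclideanSpace.basisFun (Fin n) ℝ).toBasis
      (EuclideanSpace.basisFun (Fin n) ℝ).toBasis (L : E n →ₗ[ℝ] E n) = jm L := by
    ext i j
    rw [LinearMap.toMatrix_apply]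
    simp [jm]
  rw [e] at h
  exact h.symm

theorem jm_herm {L : E n →L[ℝ] E n} (hs : ∀ v w, (inner ℝ (L v) w : ℝ) = inner ℝ v (L w)) :
    (jm L).IsHermitian := by
  ext i j
  simp only [Matrix.conjTranspose_apply, star_trivial, jm, Matrix.of_apply]
  have h := hs (EuclideanSpace.single i 1) (EuclideanSpace.single j 1)
  rw [EuclideanSpace.inner_single_right, EuclideanSpace.inner_single_left] at h
  simpa using h

theorem quad_jm (L : E n →L[ℝ] E n) (v : Fin n → ℝ) :
    v ⬝ᵥ (jm L *ᵥ v) = inner ℝ (L (WithLp.toLp 2 v)) (WithLp.toLp 2 v) := by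
  rw [jm_mulVec, PiLp.inner_apply]
  simp only [dotProduct]
  refine Finset.sum_congr rfl fun i _ => ?_
  simp

theorem dot_self (v : Fin n → ℝ) : v ⬝ᵥ v = ‖(WithLp.toLp 2 v : E n)‖ ^ 2 := by
  rw [EuclideanSpace.norm_sq_eq]
  simp only [dotProduct]
  refine Finset.sum_congr rfl fun i _ => ?_
  rw [Real.norm_eq_abs, sq_abs]
  ring

theorem jm_aff (L : E n →L[ℝ] E n) (s t : ℝ) :
    jm (s • ContinuousLinearMap.id ℝ (E n) + t • L) =
      s • (1 : Matrix (Fin n) (Fin n) ℝ) + t • jm L := by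
  ext i j
  simp only [jm, Matrix.of_apply, Matrix.add_apply, Matrix.smul_apply, smul_eq_mul,
    ContinuousLinearMap.add_apply, ContinuousLinearMap.smul_apply, ContinuousLinearMap.id_apply,
    PiLp.add_apply, PiLp.smul_apply, Matrix.one_apply]
  congr 2
  by_cases h : i = j
  · subst h; simp
  · simp [h]

theorem norm_sq_form (w : E n) :
    ∑ i, ∑ j, (1 : Matrix (Fin n) (Fin n) ℝ) i j * (w i * w j) = ‖w‖ ^ 2 := by
  rw [EuclideanSpace.norm_sq_eq]
  refine Finset.sum_congr rfl fun i _ => ?_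
  rw [Finset.sum_eq_single i]
  · rw [Matrix.one_apply_eq, Real.norm_eq_abs, sq_abs]; ring
  · intro j _ hj
    rw [Matrix.one_apply_ne (Ne.symm hj)]; ring
  · intro h; exact absurd (Finset.mem_univ i) h

/-- the hypotheses on the transport map: `T = ∇Φ`, `0 < D²Φ ≤ M` -/
structure Tr (T : E n → E n) (M : ℝ) : Prop where
  smooth : ContDiff ℝ ∞ T
  symm : ∀ x v w, (inner ℝ (fderiv ℝ T x v) w : ℝ) = inner ℝ v (fderiv ℝ T x w)
  pos : ∀ x v, v ≠ 0 → (0 : ℝ) < inner ℝ (fderiv ℝ T x v) v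
  le : ∀ x v, (inner ℝ (fderiv ℝ T x v) v : ℝ) ≤ M * ‖v‖ ^ 2

theorem inj {T : E n → E n} (hd : Differentiable ℝ T)
    (hp : ∀ x v, v ≠ 0 → (0 : ℝ) < inner ℝ (fderiv ℝ T x v) v) : Function.Injective T := by
  intro x y hxy
  by_contra hne
  set v := x - y with hv'
  have hv : v ≠ 0 := sub_ne_zero.2 hne
  set φ : ℝ → ℝ := fun s => inner ℝ (T (y + s • v)) v with hφd
  have hφ : ∀ s, HasDerivAt φ (inner ℝ (fderiv ℝ T (y + s • v) v) v) s := by
    intro s
    have h1 : HasDerivAt (fun s : ℝ => y + s • v) v s := by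
      have := ((hasDerivAt_id s).smul_const v).const_add y
      simpa using this
    have h2 := (hd (y + s • v)).hasFDerivAt.comp_hasDerivAt s h1
    have h3 := h2.inner ℝ (hasDerivAt_const s v)
    simpa using h3
  have hm : StrictMono φ := strictMono_of_deriv_pos (fun s => by
    rw [(hφ s).deriv]; exact hp _ _ hv)
  have h0 : φ 0 < φ 1 := hm zero_lt_one
  have e0 : φ 0 = inner ℝ (T y) v := by simp [hφd]
  have e1 : φ 1 = inner ℝ (T x) v := by simp [hφd, hv']
  rw [e0, e1, hxy] at h0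
  exact lt_irrefl _ h0

/-- the interpolated map -/
def Ti (T : E n → E n) (t : ℝ) (x : E n) : E n := (1 - t) • x + t • T x

section
variable {T : E n → E n} {M : ℝ} (hT : Tr T M)
include hT

theorem Tr.diff : Differentiable ℝ T := hT.smooth.differentiable (by simp)

theorem fderiv_Ti (t : ℝ) (x : E n) :
    HasFDerivAt (Ti T t) ((1 - t) • ContinuousLinearMap.id ℝ (E n) + t • fderiv ℝ T x) x :=
  ((hasFDerivAt_id x).const_smul (1 - t)).add ((hT.diff x).hasFDerivAt.const_smul t)

theorem Ti_inj {t : ℝ} (h0 : 0 ≤ t) (h1 : t < 1) : Function.Injective (Ti T t) := by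
  refine inj (fun x => (fderiv_Ti hT t x).differentiableAt) fun x v hv => ?_
  rw [(fderiv_Ti hT t x).fderiv]
  simp only [ContinuousLinearMap.add_apply, ContinuousLinearMap.smul_apply, ContinuousLinearMap.id_apply,
    inner_add_left, inner_smul_left, real_inner_self_eq_norm_sq, RCLike.conj_to_real]
  have h2 := hT.pos x v hv
  have h3 : 0 < ‖v‖ := norm_pos_iff.2 hv
  have h4 : 0 < (1 - t) * ‖v‖ ^ 2 := mul_pos (by linarith) (by positivity)
  have h5 : 0 ≤ t * inner ℝ (fderiv ℝ T x v) v := mul_nonneg h0 h2.le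
  linarith

theorem jm_facts (hM : 1 ≤ M) (x : E n) :
    0 < (fderiv ℝ T x).det ∧
    0 < ((1 - 1 / (2 * M)) • ContinuousLinearMap.id ℝ (E n) + (1 / (2 * M)) • fderiv ℝ T x).det ∧
    (∑ i, ∑ j, (jm (fderiv ℝ T x) i j - (1 : Matrix (Fin n) (Fin n) ℝ) i j) ^ 2) / (6 * M) ≤
      (2 * M) * Real.log
        ((1 - 1 / (2 * M)) • ContinuousLinearMap.id ℝ (E n) + (1 / (2 * M)) • fderiv ℝ T x).det -
        Real.log (fderiv ℝ T x).det ∧
    ∑ i, ∑ j, (jm (fderiv ℝ T x) i j - (1 : Matrix (Fin n) (Fin n) ℝ) i j) ^ 2 ≤ n * M ^ 2 := by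
  have h := mat_ge (A := jm (fderiv ℝ T x)) (jm_herm (hT.symm x)) hM (fun v hv => by
    rw [quad_jm]
    refine hT.pos x _ fun h => hv ?_
    have := congrArg WithLp.ofLp h
    simpa using this) (fun v => by
    rw [quad_jm, dot_self]
    exact hT.le x _)
  rw [← det_jm, ← jm_aff, ← det_jm] at h
  exact h

end

/-- the Jacobian inequality -/
theorem jac_le {S : E n → E n} (hd : Differentiable ℝ S) (hi : Function.Injective S)
    {R : E n → ℝ≥0∞} (h1 : ∫⁻ x, R x ≤ 1) :
    ∫⁻ x, ENNReal.ofReal |(fderiv ℝ S x).det| * R (S x) ≤ 1 := by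
  have h := lintegral_image_eq_lintegral_abs_det_fderiv_mul volume MeasurableSet.univ (f := S)
    (f' := fderiv ℝ S) (fun x _ => (hd x).hasFDerivAt.hasFDerivWithinAt) hi.injOn R
  rw [setLIntegral_univ] at h
  rw [← h]
  exact (setLIntegral_le_lintegral _ _).trans h1

/-- the Monge-Ampère equation -/
theorem jac_ae {T : E n → E n} (hT1 : ContDiff ℝ ∞ T) (hi : Function.Injective T)
    {R G : E n → ℝ≥0∞} (hR : Measurable R) (hG : Measurable G)
    {μ : Measure (E n)} (hμ : μ = (volume : Measure (E n)).withDensity R)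
    (hmap : μ.map T = μ.withDensity G) :
    ∀ᵐ x ∂(volume : Measure (E n)), ENNReal.ofReal |(fderiv ℝ T x).det| * (R (T x) * G (T x)) = R x := by
  have hc : Continuous T := hT1.continuous
  have hdc : Continuous fun x => (fderiv ℝ T x).det :=
    ContinuousLinearMap.continuous_det.comp (hT1.continuous_fderiv (by simp))
  refine ae_eq_of_forall_setLIntegral_eq_of_sigmaFinite ?_ hR fun B hB _ => ?_
  · exact (ENNReal.measurable_ofReal.comp (continuous_abs.comp hdc).measurable).mul
      ((hR.comp hc.measurable).mul (hG.comp hc.measurable))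
  · rw [← lintegral_image_eq_lintegral_abs_det_fderiv_mul volume hB (f := T) (f' := fderiv ℝ T)
      (fun x _ => ((hT1.differentiable (by simp)) x).hasFDerivAt.hasFDerivWithinAt) hi.injOn
      (fun y => R y * G y)]
    have hTB : MeasurableSet (T '' B) := hB.image_of_continuousOn_injOn hc.continuousOn hi.injOn
    have e1 : (μ.withDensity G) (T '' B) = ∫⁻ y in T '' B, R y * G y := by
      rw [withDensity_apply _ hTB, hμ, setLIntegral_withDensity_eq_setLIntegral_mul _ hR hG hTB]
      rfl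
    have e2 : (μ.map T) (T '' B) = ∫⁻ y in B, R y := by
      rw [Measure.map_apply hc.measurable hTB, hi.preimage_image, hμ, withDensity_apply _ hB]
    rw [← e1, ← hmap, e2]

end Vale.Agent.P245.H663
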