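import Mathlib

/-!
P245, transports with bounded stretch (helper663), part 1: a scalar and a matrix inequality.
-/

open Matrix Set

namespace Vale.Agent.P245.H663

theorem psi_ge {M a : ℝ} (hM : 1 ≤ M) (h0 : 0 < 1 + a) (h1 : 1 + a ≤ M) :
    a ^ 2 / (6 * M) ≤ (2 * M) * Real.log (1 - 1 / (2 * M) + 1 / (2 * M) * (1 + a)) - Real.log (1 + a) := by
  have hM0 : 0 < M := by linarith
  set f : ℝ → ℝ := fun x => (2 * M) * Real.log (1 - 1 / (2 * M) + 1 / (2 * M) * (1 + x)) - Real.log (1 + x) -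
    x ^ 2 / (6 * M) with hf
  have hpos : ∀ x, 0 < 1 + x → 0 < 1 - 1 / (2 * M) + 1 / (2 * M) * (1 + x) := by
    intro x hx
    have h2 : 1 / (2 * M) ≤ 1 / 2 := one_div_le_one_div_of_le (by norm_num) (by linarith)
    have h3 : 0 < 1 / (2 * M) * (1 + x) := by positivity
    linarith
  have hd : ∀ x, 0 < 1 + x → HasDerivAt f ((2 * M) * ((1 / (2 * M) * 1) /
      (1 - 1 / (2 * M) + 1 / (2 * M) * (1 + x))) - 1 / (1 + x) - (2 * x ^ 1 * 1) / (6 * M)) x := by
    intro x hx
    have e1 : HasDerivAt (fun x : ℝ => 1 + x) 1 x := (hasDerivAt_id x).const_add 1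
    have e2 : HasDerivAt (fun x : ℝ => 1 - 1 / (2 * M) + 1 / (2 * M) * (1 + x)) (1 / (2 * M) * 1) x :=
      (e1.const_mul _).const_add _
    have e3 : HasDerivAt (fun x : ℝ => x ^ 2) ((2 : ℕ) * x ^ (2 - 1) * 1) x := (hasDerivAt_id x).pow 2
    have e4 := (((e2.log (hpos x hx).ne').const_mul (2 * M)).sub (e1.log hx.ne')).sub (e3.div_const (6 * M))
    refine e4.congr_deriv ?_
    norm_num
  have hsgn : ∀ x, 0 < 1 + x → 1 + x ≤ M → ∃ q : ℝ, 0 ≤ q ∧ (2 * M) * ((1 / (2 * M) * 1) /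
      (1 - 1 / (2 * M) + 1 / (2 * M) * (1 + x))) - 1 / (1 + x) - (2 * x ^ 1 * 1) / (6 * M) = x * q := by
    intro x hx hxM
    have h3 : 0 < 2 * M + x := by linarith
    refine ⟨(2 * M - 1) / ((2 * M + x) * (1 + x)) - 1 / (3 * M), ?_, ?_⟩
    · have h4 : (2 * M + x) * (1 + x) ≤ 3 * M * M := by nlinarith
      have h5 : 0 < (2 * M + x) * (1 + x) := by positivity
      have h6 : (2 * M - 1) / (3 * M * M) ≤ (2 * M - 1) / ((2 * M + x) * (1 + x)) :=
        div_le_div_of_nonneg_left (by linarith) h5 h4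
      have h7 : 1 / (3 * M) ≤ (2 * M - 1) / (3 * M * M) := by
        rw [div_le_div_iff₀ (by positivity) (by positivity)]
        nlinarith
      linarith
    · have h8 : 1 - 1 / (2 * M) + 1 / (2 * M) * (1 + x) = (2 * M + x) / (2 * M) := by
        field_simp
        ring
      rw [h8]
      field_simp
      ring
  have hf0 : f 0 = 0 := by
    simp only [hf]
    norm_num
  have hcont : ∀ s : Set ℝ, (∀ x ∈ s, 0 < 1 + x) → ContinuousOn f s := fun s hs x hx =>
    (hd x (hs x hx)).continuousAt.continuousWithinAt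
  rcases le_total 0 a with ha | ha
  · have hm : MonotoneOn f (Icc 0 a) := by
      refine monotoneOn_of_deriv_nonneg (convex_Icc 0 a) (hcont _ fun x hx => by linarith [hx.1]) ?_ ?_
      · intro x hx
        rw [interior_Icc] at hx
        exact (hd x (by linarith [hx.1])).differentiableAt.differentiableWithinAt
      · intro x hx
        rw [interior_Icc] at hx
        rw [(hd x (by linarith [hx.1])).deriv]
        obtain ⟨q, hq, e⟩ := hsgn x (by linarith [hx.1]) (by linarith [hx.2])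
        rw [e]
        exact mul_nonneg hx.1.le hq
    have := hm (left_mem_Icc.2 ha) (right_mem_Icc.2 ha) ha
    rw [hf0] at this
    simp only [hf] at this
    linarith
  · have hm : AntitoneOn f (Icc a 0) := by
      refine antitoneOn_of_deriv_nonpos (convex_Icc a 0) (hcont _ fun x hx => by linarith [hx.1]) ?_ ?_
      · intro x hx
        rw [interior_Icc] at hx
        exact (hd x (by linarith [hx.1])).differentiableAt.differentiableWithinAt
      · intro x hx
        rw [interior_Icc] at hx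
        rw [(hd x (by linarith [hx.1])).deriv]
        obtain ⟨q, hq, e⟩ := hsgn x (by linarith [hx.1]) (by linarith [hx.2])
        rw [e]
        exact mul_nonpos_of_nonpos_of_nonneg hx.2.le hq
    have := hm (left_mem_Icc.2 ha) (right_mem_Icc.2 ha) ha
    rw [hf0] at this
    simp only [hf] at this
    linarith

section mat

variable {n : ℕ} {A : Matrix (Fin n) (Fin n) ℝ}

/-- spectral form -/
theorem spec (hA : A.IsHermitian) : ∃ (U : Matrix (Fin n) (Fin n) ℝ), U * Uᵀ = 1 ∧ Uᵀ * U = 1 ∧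
    A = U * diagonal hA.eigenvalues * Uᵀ := by
  refine ⟨(hA.eigenvectorUnitary : Matrix (Fin n) (Fin n) ℝ), ?_, ?_, ?_⟩
  · have := (mem_unitaryGroup_iff.1 hA.eigenvectorUnitary.2)
    simpa [Matrix.star_eq_conjTranspose] using this
  · have := (mem_unitaryGroup_iff'.1 hA.eigenvectorUnitary.2)
    simpa [Matrix.star_eq_conjTranspose] using this
  · have h := hA.spectral_theorem
    simpa [Unitary.conjStarAlgAut_apply, Matrix.star_eq_conjTranspose] using h

theorem spec_aff (hA : A.IsHermitian) {U : Matrix (Fin n) (Fin n) ℝ} (h1 : U * Uᵀ = 1)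
    (h3 : A = U * diagonal hA.eigenvalues * Uᵀ) (s t : ℝ) :
    s • (1 : Matrix (Fin n) (Fin n) ℝ) + t • A = U * diagonal (fun i => s + t * hA.eigenvalues i) * Uᵀ := by
  have e : diagonal (fun i => s + t * hA.eigenvalues i) =
      s • (1 : Matrix (Fin n) (Fin n) ℝ) + t • diagonal hA.eigenvalues := by
    ext i j
    by_cases h : i = j
    · subst h; simp
    · simp [h, Matrix.one_apply]
  rw [e, Matrix.mul_add, Matrix.add_mul, Matrix.mul_smul, Matrix.mul_smul, Matrix.smul_mul, Matrix.smul_mul,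
    Matrix.mul_one, h1, ← h3]

theorem det_aff (hA : A.IsHermitian) (s t : ℝ) :
    (s • (1 : Matrix (Fin n) (Fin n) ℝ) + t • A).det = ∏ i, (s + t * hA.eigenvalues i) := by
  obtain ⟨U, h1, h2, h3⟩ := spec hA
  rw [spec_aff hA h1 h3 s t, Matrix.det_mul_right_comm, h1, Matrix.one_mul, Matrix.det_diagonal]

theorem hs_eq (hA : A.IsHermitian) :
    ∑ i, ∑ j, (A i j - (1 : Matrix (Fin n) (Fin n) ℝ) i j) ^ 2 = ∑ i, (hA.eigenvalues i - 1) ^ 2 := by
  obtain ⟨U, h1, h2, h3⟩ := spec hA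
  have hB := spec_aff hA h1 h3 (-1) 1
  set B : Matrix (Fin n) (Fin n) ℝ := (-1 : ℝ) • (1 : Matrix (Fin n) (Fin n) ℝ) + (1 : ℝ) • A with hBd
  have hBs : Bᵀ = B := by
    have : Aᵀ = A := by
      have := hA
      unfold Matrix.IsHermitian at this
      simpa using this
    rw [hBd, Matrix.transpose_add, Matrix.transpose_smul, Matrix.transpose_smul, this, Matrix.transpose_one]
  have e1 : ∑ i, ∑ j, (A i j - (1 : Matrix (Fin n) (Fin n) ℝ) i j) ^ 2 = (B * B).trace := by
    rw [Matrix.trace]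
    refine Finset.sum_congr rfl fun i _ => ?_
    rw [Matrix.diag_apply, Matrix.mul_apply]
    refine Finset.sum_congr rfl fun j _ => ?_
    have : B j i = B i j := by
      conv_lhs => rw [← hBs]
      rfl
    rw [this, hBd]
    simp only [Matrix.add_apply, Matrix.smul_apply, smul_eq_mul]
    ring
  rw [e1, hB]
  have e2 : U * diagonal (fun i => -1 + 1 * hA.eigenvalues i) * Uᵀ *
      (U * diagonal (fun i => -1 + 1 * hA.eigenvalues i) * Uᵀ) =
      U * (diagonal (fun i => (-1 + 1 * hA.eigenvalues i) * (-1 + 1 * hA.eigenvalues i)) * Uᵀ) := by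
    rw [← Matrix.diagonal_mul_diagonal]
    simp only [Matrix.mul_assoc]
    rw [← Matrix.mul_assoc Uᵀ U, h2, Matrix.one_mul]
  rw [e2, Matrix.trace_mul_comm, Matrix.mul_assoc, h2, Matrix.mul_one, Matrix.trace_diagonal]
  refine Finset.sum_congr rfl fun i _ => ?_
  ring

/-- eigenvalue bounds -/
theorem eig_bd (hA : A.IsHermitian) {M : ℝ} (hpos : ∀ v : Fin n → ℝ, v ≠ 0 → 0 < v ⬝ᵥ (A *ᵥ v))
    (hle : ∀ v : Fin n → ℝ, v ⬝ᵥ (A *ᵥ v) ≤ M * (v ⬝ᵥ v)) (i : Fin n) :
    0 < hA.eigenvalues i ∧ hA.eigenvalues i ≤ M := by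
  set w : Fin n → ℝ := (hA.eigenvectorBasis i).ofLp with hw
  have h1 : A *ᵥ w = hA.eigenvalues i • w := hA.mulVec_eigenvectorBasis i
  have h2 : w ⬝ᵥ w = 1 := by
    have h3 := (hA.eigenvectorBasis).orthonormal.1 i
    have h4 : ‖hA.eigenvectorBasis i‖ ^ 2 = 1 := by rw [h3]; norm_num
    rw [EuclideanSpace.norm_sq_eq] at h4
    rw [← h4]
    simp only [dotProduct, hw]
    refine Finset.sum_congr rfl fun j _ => ?_
    rw [Real.norm_eq_abs, sq_abs]
    ring
  have h5 : w ≠ 0 := by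
    intro h
    rw [h] at h2
    simp at h2
  have h6 := hpos w h5
  have h7 := hle w
  rw [h1, dotProduct_smul, h2] at h6 h7
  simp only [smul_eq_mul, mul_one] at h6 h7
  exact ⟨h6, h7⟩

/-- the matrix inequality -/
theorem mat_ge (hA : A.IsHermitian) {M : ℝ} (hM : 1 ≤ M)
    (hpos : ∀ v : Fin n → ℝ, v ≠ 0 → 0 < v ⬝ᵥ (A *ᵥ v))
    (hle : ∀ v : Fin n → ℝ, v ⬝ᵥ (A *ᵥ v) ≤ M * (v ⬝ᵥ v)) :
    0 < A.det ∧ 0 < ((1 - 1 / (2 * M)) • (1 : Matrix (Fin n) (Fin n) ℝ) + (1 / (2 * M)) • A).det ∧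
    (∑ i, ∑ j, (A i j - (1 : Matrix (Fin n) (Fin n) ℝ) i j) ^ 2) / (6 * M) ≤
      (2 * M) * Real.log ((1 - 1 / (2 * M)) • (1 : Matrix (Fin n) (Fin n) ℝ) + (1 / (2 * M)) • A).det -
        Real.log A.det ∧
    ∑ i, ∑ j, (A i j - (1 : Matrix (Fin n) (Fin n) ℝ) i j) ^ 2 ≤ n * M ^ 2 := by
  have hb := eig_bd hA hpos hle
  have hM0 : 0 < M := by linarith
  have hd1 : A.det = ∏ i, hA.eigenvalues i := by
    have := det_aff hA 0 1
    simpa using this
  have hd2 := det_aff hA (1 - 1 / (2 * M)) (1 / (2 * M))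
  have h2 : 1 / (2 * M) ≤ 1 / 2 := one_div_le_one_div_of_le (by norm_num) (by linarith)
  have hp2 : ∀ i, 0 < 1 - 1 / (2 * M) + 1 / (2 * M) * hA.eigenvalues i := fun i => by
    have h3 : 0 < 1 / (2 * M) * hA.eigenvalues i := mul_pos (by positivity) (hb i).1
    linarith
  refine ⟨?_, ?_, ?_, ?_⟩
  · rw [hd1]; exact Finset.prod_pos fun i _ => (hb i).1
  · rw [hd2]; exact Finset.prod_pos fun i _ => hp2 i
  · rw [hd2, hd1, Real.log_prod fun i _ => (hp2 i).ne', Real.log_prod fun i _ => (hb i).1.ne', hs_eq hA,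
      Finset.mul_sum, ← Finset.sum_sub_distrib, Finset.sum_div]
    refine Finset.sum_le_sum fun i _ => ?_
    have h := psi_ge (M := M) (a := hA.eigenvalues i - 1) hM (by linarith [(hb i).1]) (by linarith [(hb i).2])
    have e : 1 + (hA.eigenvalues i - 1) = hA.eigenvalues i := by ring
    rw [e] at h
    exact h
  · rw [hs_eq hA]
    calc ∑ i, (hA.eigenvalues i - 1) ^ 2 ≤ ∑ _i : Fin n, M ^ 2 := by
          refine Finset.sum_le_sum fun i _ => ?_
          have := hb i
          nlinarith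
      _ = n * M ^ 2 := by simp

end mat

end Vale.Agent.P245.H663
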