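import Vale.Agent.P245.H663.Jac

/-!
P245, transports with bounded stretch (helper663), part 3: the transport inequality.
-/

open MeasureTheory Set Filter Topology Matrix
open scoped ENNReal NNReal ContDiff

noncomputable section

namespace Vale.Agent.P245.H663

variable {n : ℕ}

/-- the squared Hilbert-Schmidt norm of `DT - 1` -/
def hs (T : E n → E n) (x : E n) : ℝ :=
  ∑ i, ∑ j, (jm (fderiv ℝ T x) i j - (1 : Matrix (Fin n) (Fin n) ℝ) i j) ^ 2

theorem young {u v : ℝ} (hu : 0 ≤ u) : u * v ≤ u * Real.log u - u + Real.exp v := by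
  rcases hu.eq_or_lt with h | h
  · rw [← h]; simp; exact (Real.exp_pos v).le
  · have h1 := Real.add_one_le_exp (v - Real.log u)
    have h2 : Real.exp v = u * Real.exp (v - Real.log u) := by
      rw [Real.exp_sub, Real.exp_log h]; field_simp
    rw [h2]
    nlinarith

theorem helli {g : ℝ} (hg : 0 ≤ g) : (√g - 1) ^ 2 ≤ g * Real.log g - g + 1 := by
  rcases hg.eq_or_lt with h | h
  · rw [← h]; simp
  · have hq : 0 < √g := Real.sqrt_pos.2 h
    have h1 := Real.one_sub_inv_le_log_of_pos hq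
    have h2 : Real.log g = 2 * Real.log √g := by
      rw [Real.log_sqrt hg]; ring
    have h3 : g = √g * √g := (Real.mul_self_sqrt hg).symm
    rw [h2]
    have h4 : √g * √g * (1 - (√g)⁻¹) ≤ √g * √g * Real.log √g :=
      mul_le_mul_of_nonneg_left h1 (by positivity)
    have h5 : √g * √g * (1 - (√g)⁻¹) = √g * √g - √g := by
      field_simp
    rw [h5] at h4
    nlinarith

/-- pointwise Cauchy-Schwarz -/
theorem pw1 {g X s : ℝ} (hg : 0 ≤ g) (hs : 0 < s) :
    (g - 1) * X ≤ (g * Real.log g - g + 1) / (2 * s) + s * (g * X ^ 2 + X ^ 2) := by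
  have h1 := helli hg
  have h3 : √g * √g = g := Real.mul_self_sqrt hg
  have h4 : (g - 1) * X = (√g - 1) * ((√g + 1) * X) := by
    have : (√g - 1) * ((√g + 1) * X) = (√g * √g - 1) * X := by ring
    rw [this, h3]
  have h5 : (√g - 1) * ((√g + 1) * X) ≤ (√g - 1) ^ 2 / (2 * s) + s / 2 * ((√g + 1) * X) ^ 2 := by
    have e : (√g - 1) ^ 2 / (2 * s) + s / 2 * ((√g + 1) * X) ^ 2 - (√g - 1) * ((√g + 1) * X) =
        ((√g - 1) - s * ((√g + 1) * X)) ^ 2 / (2 * s) := by
      field_simp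
      ring
    have : 0 ≤ ((√g - 1) - s * ((√g + 1) * X)) ^ 2 / (2 * s) := by positivity
    linarith
  have h6 : (√g - 1) ^ 2 / (2 * s) ≤ (g * Real.log g - g + 1) / (2 * s) :=
    div_le_div_of_nonneg_right h1 (by positivity)
  have h7 : (√g + 1) ^ 2 ≤ 2 * (g + 1) := by nlinarith [sq_nonneg (√g - 1)]
  have h8 : s / 2 * ((√g + 1) * X) ^ 2 ≤ s * (g * X ^ 2 + X ^ 2) := by
    rw [mul_pow]
    have := mul_le_mul_of_nonneg_right h7 (sq_nonneg X)
    nlinarith
  rw [h4]
  linarith

theorem pw2 {g X s : ℝ} (hg : 0 ≤ g) (hs : 0 < s) :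
    (g - 1) * X ≤ (g + 1) / (4 * s) + s * (g * X ^ 2 + X ^ 2) := by
  have h1 : |X| ≤ 1 / (4 * s) + s * X ^ 2 := by
    have e : 1 / (4 * s) + s * X ^ 2 - |X| = (1 - 2 * s * |X|) ^ 2 / (4 * s) := by
      rw [← sq_abs X]
      field_simp
      ring
    have : 0 ≤ (1 - 2 * s * |X|) ^ 2 / (4 * s) := by positivity
    linarith
  have h2 : (g - 1) * X ≤ (g + 1) * |X| := by
    have h3 : g * X ≤ g * |X| := mul_le_mul_of_nonneg_left (le_abs_self X) hg
    have h4 := neg_abs_le X
    nlinarith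
  have h5 : (g + 1) * |X| ≤ (g + 1) * (1 / (4 * s) + s * X ^ 2) :=
    mul_le_mul_of_nonneg_left h1 (by linarith)
  have h6 : (g + 1) * (1 / (4 * s) + s * X ^ 2) = (g + 1) / (4 * s) + s * (g * X ^ 2 + X ^ 2) := by
    ring
  linarith

/-- the pointwise entropy inequality -/
theorem key {ρ : E n → ℝ} (hρ0 : ∀ x, 0 ≤ ρ x)
    (hlc : ConcaveOn ℝ {x | 0 < ρ x} (fun x => Real.log (ρ x))) {T : E n → E n} {M : ℝ} (hM : 1 ≤ M)
    (hT : Tr T M) {g : E n → ℝ} {x : E n} (hx : 0 < ρ x)
    (h : ENNReal.ofReal |(fderiv ℝ T x).det| * (ENNReal.ofReal (ρ (T x)) * ENNReal.ofReal (g (T x))) =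
      ENNReal.ofReal (ρ x)) :
    hs T x / (6 * M) + 2 * M * (1 - (|(fderiv ℝ (Ti T (1 / (2 * M))) x).det| *
      ρ (Ti T (1 / (2 * M)) x)) / ρ x) ≤ Real.log (g (T x)) := by
  have hM0 : 0 < M := by linarith
  obtain ⟨hd, hdt, hmat, -⟩ := jm_facts hT hM x
  set t : ℝ := 1 / (2 * M) with ht
  have ht0 : 0 < t := by positivity
  have ht1 : t < 1 := by
    rw [ht, div_lt_one (by positivity)]; linarith
  have htM : 2 * M * t = 1 := by rw [ht]; field_simp
  rw [(fderiv_Ti hT t x).fderiv]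
  set dt := ((1 - t) • ContinuousLinearMap.id ℝ (E n) + t • fderiv ℝ T x).det with hdtd
  set d := (fderiv ℝ T x).det with hdd
  have hne : ENNReal.ofReal (ρ x) ≠ 0 := by
    rw [Ne, ENNReal.ofReal_eq_zero, not_le]; exact hx
  have hρT : 0 < ρ (T x) := by
    by_contra hc
    push Not at hc
    rw [ENNReal.ofReal_eq_zero.2 hc] at h
    simp only [zero_mul, mul_zero] at h
    exact hne h.symm
  have hgT : 0 < g (T x) := by
    by_contra hc
    push Not at hc
    rw [ENNReal.ofReal_eq_zero.2 hc] at h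
    simp only [mul_zero] at h
    exact hne h.symm
  have hid : d * (ρ (T x) * g (T x)) = ρ x := by
    rw [← ENNReal.ofReal_mul hρT.le, ← ENNReal.ofReal_mul (abs_nonneg _), abs_of_pos hd] at h
    exact (ENNReal.ofReal_eq_ofReal_iff (by positivity) hx.le).1 h
  -- concavity
  have hconv := hlc.2 (show x ∈ {x | 0 < ρ x} from hx) (show T x ∈ {x | 0 < ρ x} from hρT)
    (show 0 ≤ 1 - t by linarith) ht0.le (by ring)
  have hSt : 0 < ρ (Ti T t x) := hlc.1 (show x ∈ {x | 0 < ρ x} from hx)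
    (show T x ∈ {x | 0 < ρ x} from hρT) (show 0 ≤ 1 - t by linarith) ht0.le (by ring)
  simp only [smul_eq_mul] at hconv
  have hconv' : (1 - t) * Real.log (ρ x) + t * Real.log (ρ (T x)) ≤ Real.log (ρ (Ti T t x)) := hconv
  have hlog : Real.log (g (T x)) = Real.log (ρ x) - Real.log (ρ (T x)) - Real.log d := by
    rw [← hid, Real.log_mul hd.ne' (by positivity), Real.log_mul hρT.ne' hgT.ne']
    ring
  rw [abs_of_pos hdt]
  set r := dt * ρ (Ti T t x) / ρ x with hr
  have hr0 : 0 < r := by positivity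
  have hlr := Real.log_le_sub_one_of_pos hr0
  have hlr2 : Real.log r = Real.log dt + Real.log (ρ (Ti T t x)) - Real.log (ρ x) := by
    rw [hr, Real.log_div (by positivity) hx.ne', Real.log_mul hdt.ne' hSt.ne']
  rw [hlr2] at hlr
  rw [hlog]
  have h1 : hs T x / (6 * M) ≤ 2 * M * Real.log dt - Real.log d := hmat
  -- t (log ρ x - log ρ Tx) ≥ log ρ x - log ρ (Ti) ≥ log dt - (r-1)
  have h2 : Real.log dt - (r - 1) ≤ t * (Real.log (ρ x) - Real.log (ρ (T x))) := by nlinarith
  have h3 := mul_le_mul_of_nonneg_left h2 (show 0 ≤ 2 * M by positivity)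
  have h4 : 2 * M * (t * (Real.log (ρ x) - Real.log (ρ (T x)))) = Real.log (ρ x) - Real.log (ρ (T x)) := by
    rw [← mul_assoc, htM, one_mul]
  rw [h4] at h3
  linarith

section main

variable {μ : Measure (E n)} [IsProbabilityMeasure μ] {T : E n → E n} {M : ℝ} {g : E n → ℝ}

theorem hs_cont (hT : Tr T M) : Continuous (hs T) := by
  unfold hs
  refine continuous_finset_sum _ fun i _ => continuous_finset_sum _ fun j _ => ?_
  refine Continuous.pow (Continuous.sub ?_ continuous_const) 2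
  have h1 : Continuous fun x => fderiv ℝ T x (EuclideanSpace.single j (1 : ℝ)) :=
    (hT.smooth.continuous_fderiv (by simp)).clm_apply continuous_const
  exact (EuclideanSpace.proj i : E n →L[ℝ] ℝ).continuous.comp h1

theorem hs_int (hT : Tr T M) (hM : 1 ≤ M) : Integrable (hs T) μ := by
  refine Integrable.mono' (integrable_const ((n : ℝ) * M ^ 2)) (hs_cont hT).aestronglyMeasurable
    (Eventually.of_forall fun x => ?_)
  have h1 := (jm_facts hT hM x).2.2.2
  have h2 : 0 ≤ hs T x := Finset.sum_nonneg fun i _ => Finset.sum_nonneg fun j _ => sq_nonneg _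
  rw [Real.norm_eq_abs, abs_of_nonneg h2]
  exact h1

/-- **the entropy bound**: no regularity of the potential -/
theorem ent_ge (hlc : HasLogConcaveDensity μ) (hM : 1 ≤ M) (hT : Tr T M) (hg : Measurable g)
    (hg0 : ∀ x, 0 ≤ g x) (hmap : μ.map T = μ.withDensity fun x => ENNReal.ofReal (g x))
    (hint : Integrable (fun x => g x * Real.log (g x)) μ) :
    ∫ x, hs T x ∂μ ≤ 6 * M * ∫ x, g x * Real.log (g x) ∂μ := by
  have hM0 : 0 < M := by linarith
  obtain ⟨ρ, hρm, hρ0, hρc, hμ⟩ := hlc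
  set R : E n → ℝ≥0∞ := fun x => ENNReal.ofReal (ρ x) with hR
  have hRm : Measurable R := ENNReal.measurable_ofReal.comp hρm
  have hGm : Measurable fun x => ENNReal.ofReal (g x) := ENNReal.measurable_ofReal.comp hg
  have hTc : Continuous T := hT.smooth.continuous
  have hinj : Function.Injective T := inj hT.diff hT.pos
  have hR1 : ∫⁻ x, R x = 1 := by
    have h := measure_univ (μ := μ)
    rw [hμ, withDensity_apply _ MeasurableSet.univ, setLIntegral_univ] at h
    exact h
  set t : ℝ := 1 / (2 * M) with ht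
  have ht0 : 0 < t := by positivity
  have ht1 : t < 1 := by
    rw [ht, div_lt_one (by positivity)]; linarith
  have hTi : Differentiable ℝ (Ti T t) := fun x => (fderiv_Ti hT t x).differentiableAt
  have hJ := jac_le hTi (Ti_inj hT ht0.le ht1) (R := R) hR1.le
  have hMA := jac_ae hT.smooth hinj hRm hGm hμ hmap
  set r : E n → ℝ := fun x => (|(fderiv ℝ (Ti T t) x).det| * ρ (Ti T t x)) / ρ x with hr
  have hTic : Continuous (Ti T t) := hTi.continuous
  have hdc : Continuous fun x => (fderiv ℝ (Ti T t) x).det := by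
    have e : (fun x => (fderiv ℝ (Ti T t) x).det) =
        fun x => ((1 - t) • ContinuousLinearMap.id ℝ (E n) + t • fderiv ℝ T x).det := by
      funext x
      rw [(fderiv_Ti hT t x).fderiv]
    rw [e]
    exact ContinuousLinearMap.continuous_det.comp
      (continuous_const.add ((hT.smooth.continuous_fderiv (by simp)).const_smul t))
  have hrm : Measurable r :=
    ((continuous_abs.comp hdc).measurable.mul (hρm.comp hTic.measurable)).div hρm
  have hr0 : ∀ x, 0 ≤ r x := fun x => div_nonneg (mul_nonneg (abs_nonneg _) (hρ0 _)) (hρ0 _)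
  have hrl : ∫⁻ x, ENNReal.ofReal (r x) ∂μ ≤ 1 := by
    rw [hμ, lintegral_withDensity_eq_lintegral_mul _ hRm hrm.ennreal_ofReal]
    refine (lintegral_mono fun x => ?_).trans hJ
    simp only [Pi.mul_apply]
    rcases (hρ0 x).eq_or_lt with h0 | h0
    · have : R x = 0 := by rw [hR]; simp [← h0]
      rw [this, zero_mul]
      exact zero_le
    · rw [hR]
      simp only
      rw [← ENNReal.ofReal_mul h0.le, ← ENNReal.ofReal_mul (abs_nonneg _)]
      refine ENNReal.ofReal_le_ofReal (le_of_eq ?_)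
      rw [hr]
      field_simp
  have hri : Integrable r μ := by
    refine ⟨hrm.aestronglyMeasurable, ?_⟩
    rw [hasFiniteIntegral_iff_ofReal (Eventually.of_forall hr0)]
    exact lt_of_le_of_lt hrl ENNReal.one_lt_top
  have hr1 : ∫ x, r x ∂μ ≤ 1 := by
    rw [integral_eq_lintegral_of_nonneg_ae (Eventually.of_forall hr0) hrm.aestronglyMeasurable]
    exact ENNReal.toReal_le_of_le_ofReal zero_le_one (by simpa using hrl)
  -- the logarithm
  have hlogi : Integrable (fun x => Real.log (g (T x))) μ := by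
    have h1 : Integrable (fun y => Real.log (g y)) (μ.map T) := by
      rw [hmap, integrable_withDensity_iff_integrable_smul' hGm (Eventually.of_forall fun _ =>
        ENNReal.ofReal_lt_top)]
      refine hint.congr (Eventually.of_forall fun x => ?_)
      simp only [smul_eq_mul]
      rw [ENNReal.toReal_ofReal (hg0 x)]
    exact (integrable_map_measure h1.aestronglyMeasurable hTc.measurable.aemeasurable).1 h1
  have hlog : ∫ x, Real.log (g (T x)) ∂μ = ∫ x, g x * Real.log (g x) ∂μ := by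
    have h1 : ∫ y, Real.log (g y) ∂(μ.map T) = ∫ x, Real.log (g (T x)) ∂μ :=
      integral_map hTc.measurable.aemeasurable (Real.measurable_log.comp hg).aestronglyMeasurable
    rw [← h1, hmap, integral_withDensity_eq_integral_toReal_smul hGm (Eventually.of_forall fun _ =>
        ENNReal.ofReal_lt_top)]
    refine integral_congr_ae (Eventually.of_forall fun x => ?_)
    simp only [smul_eq_mul]
    rw [ENNReal.toReal_ofReal (hg0 x)]
  -- almost everywhere
  have hae : ∀ᵐ x ∂μ, hs T x / (6 * M) + 2 * M * (1 - r x) ≤ Real.log (g (T x)) := by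
    rw [hμ, ae_withDensity_iff hRm]
    filter_upwards [hMA] with x hx hne
    have hρx : 0 < ρ x := by
      by_contra hc
      push Not at hc
      exact hne (ENNReal.ofReal_eq_zero.2 hc)
    exact key hρ0 hρc hM hT hρx hx
  have hhs := hs_int (μ := μ) hT hM
  have hi1 : Integrable (fun x => hs T x / (6 * M)) μ := hhs.div_const (6 * M)
  have hi2 : Integrable (fun x => 2 * M * (1 - r x)) μ := ((integrable_const 1).sub hri).const_mul (2 * M)
  have h1 := integral_mono_ae (hi1.add hi2) hlogi hae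
  have e1 : ∫ x, ((fun x => hs T x / (6 * M)) + fun x => 2 * M * (1 - r x)) x ∂μ =
      (∫ x, hs T x ∂μ) / (6 * M) + 2 * M * (1 - ∫ x, r x ∂μ) := by
    rw [integral_add' hi1 hi2, integral_div, integral_const_mul, integral_sub (integrable_const 1) hri]
    simp
  rw [e1, hlog] at h1
  have h3 : 0 ≤ 2 * M * (1 - ∫ x, r x ∂μ) := mul_nonneg (by positivity) (by linarith)
  have h4 : (∫ x, hs T x ∂μ) / (6 * M) ≤ ∫ x, g x * Real.log (g x) ∂μ := by linarith
  rw [div_le_iff₀ (by positivity)] at h4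
  linarith

/-- displacement coordinates -/
def ui (T : E n → E n) (i : Fin n) (x : E n) : ℝ := (T x) i - x i

theorem ui_fd (hT : Tr T M) (i : Fin n) (x : E n) : HasFDerivAt (ui T i)
    (((EuclideanSpace.proj i : E n →L[ℝ] ℝ).comp (fderiv ℝ T x)) - (EuclideanSpace.proj i : E n →L[ℝ] ℝ)) x :=
  (((EuclideanSpace.proj i : E n →L[ℝ] ℝ).hasFDerivAt.comp x (hT.diff x).hasFDerivAt)).sub
    (EuclideanSpace.proj i : E n →L[ℝ] ℝ).hasFDerivAt

theorem ui_smooth (hT : Tr T M) (i : Fin n) : ContDiff ℝ ∞ (ui T i) :=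
  ((EuclideanSpace.proj i : E n →L[ℝ] ℝ).contDiff.comp hT.smooth).sub
    (EuclideanSpace.proj i : E n →L[ℝ] ℝ).contDiff

theorem ui_grad (hT : Tr T M) (i j : Fin n) (x : E n) :
    gradient (ui T i) x j = jm (fderiv ℝ T x) i j - (1 : Matrix (Fin n) (Fin n) ℝ) i j := by
  rw [H607.grad_i, (ui_fd hT i x).fderiv]
  change (fderiv ℝ T x (EuclideanSpace.single j (1 : ℝ))) i - (EuclideanSpace.single j (1 : ℝ) : E n) i = _
  congr 1
  rw [Matrix.one_apply]
  by_cases h : i = j
  · subst h; simp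
  · simp [h]

theorem hs_grad (hT : Tr T M) (x : E n) : hs T x = ∑ i, ‖gradient (ui T i) x‖ ^ 2 := by
  unfold hs
  refine Finset.sum_congr rfl fun i _ => ?_
  rw [EuclideanSpace.norm_sq_eq]
  refine Finset.sum_congr rfl fun j _ => ?_
  rw [ui_grad hT, Real.norm_eq_abs, sq_abs]

theorem ui_grad_bd (hT : Tr T M) (hM : 1 ≤ M) (i : Fin n) (x : E n) :
    ‖gradient (ui T i) x‖ ≤ √(n * M ^ 2) := by
  refine Real.le_sqrt_of_sq_le ?_
  have h1 := (jm_facts hT hM x).2.2.2
  have h2 : hs T x ≤ n * M ^ 2 := h1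
  rw [hs_grad hT] at h2
  exact (Finset.single_le_sum (f := fun i => ‖gradient (ui T i) x‖ ^ 2) (fun _ _ => sq_nonneg _)
    (Finset.mem_univ i)).trans h2

/-- linear growth -/
theorem ui_bd (hT : Tr T M) (hM : 1 ≤ M) (i : Fin n) (x : E n) :
    |ui T i x| ≤ |ui T i 0| + √(n * M ^ 2) * ‖x‖ := by
  have h := Convex.norm_image_sub_le_of_norm_fderiv_le (𝕜 := ℝ) (f := ui T i) (C := √(n * M ^ 2))
    (s := Set.univ) (fun y _ => (ui_fd hT i y).differentiableAt)
    (fun y _ => by rw [← H607.norm_grad]; exact ui_grad_bd hT hM i y) convex_univ (Set.mem_univ 0)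
    (Set.mem_univ x)
  rw [sub_zero, Real.norm_eq_abs] at h
  have h3 := abs_sub_abs_le_abs_sub (ui T i x) (ui T i 0)
  linarith

/-- second moments from the linear subgaussian bound -/
theorem sub_int {a : ℝ} (ha : 0 < a) (hsub : LinearlySubgaussian μ a) (θ : E n) (hθ : ‖θ‖ = 1) :
    Integrable (fun x => Real.exp ((inner ℝ x θ : ℝ) ^ 2 / a ^ 2)) μ ∧
      ∫ x, Real.exp ((inner ℝ x θ : ℝ) ^ 2 / a ^ 2) ∂μ ≤ 2 := by
  have hc : Continuous fun x : E n => Real.exp ((inner ℝ x θ : ℝ) ^ 2 / a ^ 2) := by fun_prop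
  have h := hsub θ hθ
  constructor
  · refine ⟨hc.aestronglyMeasurable, ?_⟩
    rw [hasFiniteIntegral_iff_ofReal (Eventually.of_forall fun x => (Real.exp_pos _).le)]
    exact lt_of_le_of_lt h (by norm_num)
  · rw [integral_eq_lintegral_of_nonneg_ae (Eventually.of_forall fun x => (Real.exp_pos _).le)
      hc.aestronglyMeasurable]
    exact ENNReal.toReal_le_of_le_ofReal (by norm_num) (by simpa using h)

theorem sq_int {a : ℝ} (ha : 0 < a) (hsub : LinearlySubgaussian μ a) (θ : E n) (hθ : ‖θ‖ = 1) :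
    Integrable (fun x => (inner ℝ x θ : ℝ) ^ 2) μ ∧ ∫ x, (inner ℝ x θ : ℝ) ^ 2 ∂μ ≤ a ^ 2 := by
  obtain ⟨h1, h2⟩ := sub_int ha hsub θ hθ
  have ha2 : 0 < a ^ 2 := by positivity
  have hp : ∀ x : E n, (inner ℝ x θ : ℝ) ^ 2 ≤ a ^ 2 * (Real.exp ((inner ℝ x θ : ℝ) ^ 2 / a ^ 2) - 1) := by
    intro x
    have h3 := Real.add_one_le_exp ((inner ℝ x θ : ℝ) ^ 2 / a ^ 2)
    have h4 : (inner ℝ x θ : ℝ) ^ 2 = a ^ 2 * ((inner ℝ x θ : ℝ) ^ 2 / a ^ 2) := by field_simp
    calc (inner ℝ x θ : ℝ) ^ 2 = a ^ 2 * ((inner ℝ x θ : ℝ) ^ 2 / a ^ 2) := h4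
      _ ≤ _ := mul_le_mul_of_nonneg_left (by linarith) ha2.le
  have hi : Integrable (fun x : E n => a ^ 2 * (Real.exp ((inner ℝ x θ : ℝ) ^ 2 / a ^ 2) - 1)) μ :=
    (h1.sub (integrable_const 1)).const_mul _
  have hi0 : Integrable (fun x : E n => (inner ℝ x θ : ℝ) ^ 2) μ := by
    refine hi.mono' (by fun_prop) (Eventually.of_forall fun x => ?_)
    rw [Real.norm_eq_abs, abs_of_nonneg (sq_nonneg _)]
    exact hp x
  refine ⟨hi0, ?_⟩
  have h5 := integral_mono hi0 hi hp
  rw [integral_const_mul, integral_sub h1 (integrable_const 1)] at h5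
  simp only [integral_const, probReal_univ, smul_eq_mul, mul_one] at h5
  nlinarith

/-- Gibbs: second moment under `g μ` -/
theorem gsq_int {a : ℝ} (ha : 0 < a) (hsub : LinearlySubgaussian μ a) (θ : E n) (hθ : ‖θ‖ = 1)
    (hg : Measurable g) (hg0 : ∀ x, 0 ≤ g x) (hgi : Integrable g μ) (hg1 : ∫ x, g x ∂μ = 1)
    (hint : Integrable (fun x => g x * Real.log (g x)) μ) :
    Integrable (fun x => g x * (inner ℝ x θ : ℝ) ^ 2) μ ∧
      ∫ x, g x * (inner ℝ x θ : ℝ) ^ 2 ∂μ ≤ a ^ 2 * ((∫ x, g x * Real.log (g x) ∂μ) + 1) := by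
  obtain ⟨h1, h2⟩ := sub_int ha hsub θ hθ
  have ha2 : 0 < a ^ 2 := by positivity
  have hp : ∀ x : E n, g x * (inner ℝ x θ : ℝ) ^ 2 ≤
      a ^ 2 * (g x * Real.log (g x) + Real.exp ((inner ℝ x θ : ℝ) ^ 2 / a ^ 2) - g x) := by
    intro x
    have h3 := young (v := (inner ℝ x θ : ℝ) ^ 2 / a ^ 2) (hg0 x)
    have h4 : g x * (inner ℝ x θ : ℝ) ^ 2 = a ^ 2 * (g x * ((inner ℝ x θ : ℝ) ^ 2 / a ^ 2)) := by
      field_simp
    rw [h4]
    exact mul_le_mul_of_nonneg_left (by linarith) ha2.le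
  have hi : Integrable (fun x : E n =>
      a ^ 2 * (g x * Real.log (g x) + Real.exp ((inner ℝ x θ : ℝ) ^ 2 / a ^ 2) - g x)) μ :=
    ((hint.add h1).sub hgi).const_mul _
  have hm : Measurable fun x : E n => g x * (inner ℝ x θ : ℝ) ^ 2 :=
    hg.mul (by fun_prop : Continuous fun x : E n => (inner ℝ x θ : ℝ) ^ 2).measurable
  have hi0 : Integrable (fun x : E n => g x * (inner ℝ x θ : ℝ) ^ 2) μ := by
    refine hi.mono' hm.aestronglyMeasurable (Eventually.of_forall fun x => ?_)
    rw [Real.norm_eq_abs, abs_of_nonneg (mul_nonneg (hg0 x) (sq_nonneg _))]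
    exact hp x
  refine ⟨hi0, ?_⟩
  have h5 := integral_mono hi0 hi hp
  have e : ∫ x, a ^ 2 * (g x * Real.log (g x) + Real.exp ((inner ℝ x θ : ℝ) ^ 2 / a ^ 2) - g x) ∂μ =
      a ^ 2 * ((∫ x, g x * Real.log (g x) ∂μ) + (∫ x, Real.exp ((inner ℝ x θ : ℝ) ^ 2 / a ^ 2) ∂μ) - 1) := by
    rw [integral_const_mul]
    congr 1
    have e1 : ∫ x, (g x * Real.log (g x) + Real.exp ((inner ℝ x θ : ℝ) ^ 2 / a ^ 2) - g x) ∂μ =
        (∫ x, (g x * Real.log (g x) + Real.exp ((inner ℝ x θ : ℝ) ^ 2 / a ^ 2)) ∂μ) - ∫ x, g x ∂μ :=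
      integral_sub (hint.add h1) hgi
    rw [e1, integral_add hint h1, hg1]
  rw [e] at h5
  refine h5.trans (mul_le_mul_of_nonneg_left (by linarith) ha2.le)

theorem opt {D P Q : ℝ} (hD : 0 ≤ D) (hQ : 0 < Q) (h : ∀ s : ℝ, 0 < s → D ≤ P / (2 * s) + s * Q) :
    D ^ 2 ≤ 2 * P * Q := by
  rcases hD.eq_or_lt with h0 | h0
  · have hP : 0 ≤ P := by
      by_contra hc
      push Not at hc
      have hs : 0 < √(-P / (4 * Q)) := Real.sqrt_pos.2 (by apply div_pos <;> linarith)
      have h1 := h _ hs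
      rw [← h0] at h1
      have h2 : √(-P / (4 * Q)) * √(-P / (4 * Q)) = -P / (4 * Q) :=
        Real.mul_self_sqrt (by apply div_nonneg <;> linarith)
      have h3 : 0 ≤ P / 2 + √(-P / (4 * Q)) * √(-P / (4 * Q)) * Q := by
        have := mul_le_mul_of_nonneg_left h1 hs.le
        rw [mul_zero, mul_add] at this
        have e0 : ∀ q : ℝ, 0 < q → q * (P / (2 * q)) = P / 2 := fun q hq => by
          have hq' := hq.ne'
          field_simp
        have e : √(-P / (4 * Q)) * (P / (2 * √(-P / (4 * Q)))) = P / 2 := e0 _ hs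
        rw [e] at this
        nlinarith
      rw [h2] at h3
      have e2 : -P / (4 * Q) * Q = -P / 4 := by field_simp
      rw [e2] at h3
      linarith
    rw [← h0]
    have := mul_nonneg hP hQ.le
    nlinarith
  · have h1 := h (D / (2 * Q)) (by positivity)
    have e : P / (2 * (D / (2 * Q))) + D / (2 * Q) * Q = P * Q / D + D / 2 := by field_simp
    rw [e] at h1
    have h2 : D / 2 ≤ P * Q / D := by linarith
    rw [le_div_iff₀ h0] at h2
    nlinarith

/-- the mean displacement in a direction -/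
theorem mean_bd {a : ℝ} (ha : 0 < a) (hsub : LinearlySubgaussian μ a) (hT : Tr T M) (θ : E n)
    (hθ : ‖θ‖ = 1) (hg : Measurable g) (hg0 : ∀ x, 0 ≤ g x)
    (hmap : μ.map T = μ.withDensity fun x => ENNReal.ofReal (g x))
    (hint : Integrable (fun x => g x * Real.log (g x)) μ)
    (hH : 0 ≤ ∫ x, g x * Real.log (g x) ∂μ)
    (hD : 0 ≤ (∫ x, (inner ℝ (T x) θ : ℝ) ∂μ) - ∫ x, (inner ℝ x θ : ℝ) ∂μ) :
    ((∫ x, (inner ℝ (T x) θ : ℝ) ∂μ) - ∫ x, (inner ℝ x θ : ℝ) ∂μ) ^ 2 ≤
      6 * a ^ 2 * ∫ x, g x * Real.log (g x) ∂μ := by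
  have ha2 : 0 < a ^ 2 := by positivity
  have hTc : Continuous T := hT.smooth.continuous
  have hGm : Measurable fun x => ENNReal.ofReal (g x) := ENNReal.measurable_ofReal.comp hg
  have hgl : ∫⁻ x, ENNReal.ofReal (g x) ∂μ = 1 := by
    have h1 : (μ.map T) univ = 1 := by
      rw [Measure.map_apply hTc.measurable MeasurableSet.univ, preimage_univ, measure_univ]
    rw [hmap, withDensity_apply _ MeasurableSet.univ, setLIntegral_univ] at h1
    exact h1
  have hgi : Integrable g μ := by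
    refine ⟨hg.aestronglyMeasurable, ?_⟩
    rw [hasFiniteIntegral_iff_ofReal (Eventually.of_forall hg0), hgl]
    exact ENNReal.one_lt_top
  have hg1 : ∫ x, g x ∂μ = 1 := by
    rw [integral_eq_lintegral_of_nonneg_ae (Eventually.of_forall hg0) hg.aestronglyMeasurable, hgl]
    simp
  set H := ∫ x, g x * Real.log (g x) ∂μ with hHd
  obtain ⟨hs1, hs2⟩ := sq_int ha hsub θ hθ
  obtain ⟨hg2, hg3⟩ := gsq_int ha hsub θ hθ hg hg0 hgi hg1 hint
  have hX : Integrable (fun x : E n => (inner ℝ x θ : ℝ)) μ := by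
    refine ((integrable_const (1 : ℝ)).add hs1).mono' (by fun_prop) (Eventually.of_forall fun x => ?_)
    rw [Real.norm_eq_abs]
    simp only [Pi.add_apply]
    nlinarith [sq_nonneg (|(inner ℝ x θ : ℝ)| - 1), sq_abs (inner ℝ x θ : ℝ)]
  have hgX : Integrable (fun x : E n => g x * (inner ℝ x θ : ℝ)) μ := by
    refine (hgi.add hg2).mono' (hg.mul (by fun_prop : Continuous fun x : E n =>
      (inner ℝ x θ : ℝ)).measurable).aestronglyMeasurable (Eventually.of_forall fun x => ?_)
    rw [Real.norm_eq_abs, abs_mul, abs_of_nonneg (hg0 x)]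
    simp only [Pi.add_apply]
    have : |(inner ℝ x θ : ℝ)| ≤ 1 + (inner ℝ x θ : ℝ) ^ 2 := by
      nlinarith [sq_nonneg (|(inner ℝ x θ : ℝ)| - 1), sq_abs (inner ℝ x θ : ℝ)]
    nlinarith [mul_le_mul_of_nonneg_left this (hg0 x)]
  have hTX : ∫ x, (inner ℝ (T x) θ : ℝ) ∂μ = ∫ x, g x * (inner ℝ x θ : ℝ) ∂μ := by
    have h1 : ∫ y, (inner ℝ y θ : ℝ) ∂(μ.map T) = ∫ x, (inner ℝ (T x) θ : ℝ) ∂μ :=
      integral_map hTc.measurable.aemeasurable (by fun_prop)
    rw [← h1, hmap, integral_withDensity_eq_integral_toReal_smul hGm (Eventually.of_forall fun _ =>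
        ENNReal.ofReal_lt_top)]
    refine integral_congr_ae (Eventually.of_forall fun x => ?_)
    simp only [smul_eq_mul]
    rw [ENNReal.toReal_ofReal (hg0 x)]
  rw [hTX] at hD ⊢
  have hDe : (∫ x, g x * (inner ℝ x θ : ℝ) ∂μ) - ∫ x, (inner ℝ x θ : ℝ) ∂μ =
      ∫ x, (g x - 1) * (inner ℝ x θ : ℝ) ∂μ := by
    rw [← integral_sub hgX hX]
    refine integral_congr_ae (Eventually.of_forall fun x => ?_)
    simp only
    ring
  rw [hDe] at hD ⊢
  set D := ∫ x, (g x - 1) * (inner ℝ x θ : ℝ) ∂μ with hDd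
  have hDi : Integrable (fun x : E n => (g x - 1) * (inner ℝ x θ : ℝ)) μ := by
    refine (hgX.sub hX).congr (Eventually.of_forall fun x => ?_)
    simp only [Pi.sub_apply]
    ring
  have hS : ∫ x, (g x * (inner ℝ x θ : ℝ) ^ 2 + (inner ℝ x θ : ℝ) ^ 2) ∂μ ≤ a ^ 2 * (H + 2) := by
    rw [integral_add hg2 hs1]
    linarith
  have hEnt : Integrable (fun x => g x * Real.log (g x) - g x + 1) μ := (hint.sub hgi).add (integrable_const 1)
  have hEnt1 : ∫ x, (g x * Real.log (g x) - g x + 1) ∂μ = H := by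
    have e1 : ∫ x, (g x * Real.log (g x) - g x + 1) ∂μ =
        (∫ x, (g x * Real.log (g x) - g x) ∂μ) + ∫ x, (1 : ℝ) ∂μ :=
      integral_add (hint.sub hgi) (integrable_const 1)
    rw [e1, integral_sub hint hgi, hg1]
    simp only [integral_const, smul_eq_mul, mul_one, probReal_univ, sub_add_cancel]
    exact hHd.symm
  have hSi : Integrable (fun x : E n => g x * (inner ℝ x θ : ℝ) ^ 2 + (inner ℝ x θ : ℝ) ^ 2) μ := hg2.add hs1
  have hA : ∀ s : ℝ, 0 < s → D ≤ H / (2 * s) + s * (a ^ 2 * (H + 2)) := by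
    intro s hs
    have h1 := integral_mono hDi ((hEnt.div_const (2 * s)).add (hSi.const_mul s)) fun x =>
      pw1 (X := (inner ℝ x θ : ℝ)) (hg0 x) hs
    rw [integral_add' (hEnt.div_const (2 * s)) (hSi.const_mul s), integral_div, integral_const_mul,
      hEnt1] at h1
    exact h1.trans (by
      have := mul_le_mul_of_nonneg_left hS hs.le
      linarith)
  have hB : ∀ s : ℝ, 0 < s → D ≤ 1 / (2 * s) + s * (a ^ 2 * (H + 2)) := by
    intro s hs
    have hq : Integrable (fun x => g x + 1) μ := hgi.add (integrable_const 1)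
    have h1 := integral_mono hDi ((hq.div_const (4 * s)).add (hSi.const_mul s)) fun x =>
      pw2 (X := (inner ℝ x θ : ℝ)) (hg0 x) hs
    have e2 : ∫ x, (g x + 1) ∂μ = 2 := by
      rw [integral_add hgi (integrable_const 1), hg1]
      simp
      norm_num
    rw [integral_add' (hq.div_const (4 * s)) (hSi.const_mul s), integral_div, integral_const_mul, e2] at h1
    have e3 : (2 : ℝ) / (4 * s) = 1 / (2 * s) := by field_simp; norm_num
    rw [e3] at h1
    exact h1.trans (by
      have := mul_le_mul_of_nonneg_left hS hs.le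
      linarith)
  rcases le_total H 1 with h1 | h1
  · have h2 := opt (P := H) (Q := 3 * a ^ 2) hD (by positivity) fun s hs => (hA s hs).trans (by
      have : s * (a ^ 2 * (H + 2)) ≤ s * (3 * a ^ 2) :=
        mul_le_mul_of_nonneg_left (by nlinarith) hs.le
      linarith)
    linarith
  · have h2 := opt (P := 1) (Q := 3 * a ^ 2 * H) hD (by positivity) fun s hs => (hB s hs).trans (by
      have : s * (a ^ 2 * (H + 2)) ≤ s * (3 * a ^ 2 * H) :=
        mul_le_mul_of_nonneg_left (by nlinarith) hs.le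
      linarith)
    linarith

/-- **Talagrand's inequality for transports with bounded stretch**, from the Poincaré inequality -/
theorem transport (hlc : HasLogConcaveDensity μ) {a Λ : ℝ} (ha : 0 < a) (hsub : LinearlySubgaussian μ a)
    (hΛ : 0 ≤ Λ)
    (hP : ∀ f : EuclideanSpace ℝ (Fin n) → ℝ, ContDiff ℝ ∞ f → HasCompactSupport f →
      (∫ x, f x ^ 2 ∂μ) - (∫ x, f x ∂μ) ^ 2 ≤ Λ * ∫ x, ‖gradient f x‖ ^ 2 ∂μ)
    (hM : 1 ≤ M) (hT : Tr T M) (hg : Measurable g)
    (hg0 : ∀ x, 0 ≤ g x) (hmap : μ.map T = μ.withDensity fun x => ENNReal.ofReal (g x))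
    (hint : Integrable (fun x => g x * Real.log (g x)) μ) :
    ∫ x, ‖T x - x‖ ^ 2 ∂μ ≤ 6 * M * (Λ + a ^ 2) * ∫ x, g x * Real.log (g x) ∂μ := by
  have ha2 : 0 < a ^ 2 := by positivity
  have hent := ent_ge hlc hM hT hg hg0 hmap hint
  have hhs0 : 0 ≤ ∫ x, hs T x ∂μ := integral_nonneg fun x =>
    Finset.sum_nonneg fun i _ => Finset.sum_nonneg fun j _ => sq_nonneg _
  set H := ∫ x, g x * Real.log (g x) ∂μ with hHd
  have hH : 0 ≤ H := by
    by_contra hc
    push Not at hc
    have : 6 * M * H < 0 := mul_neg_of_pos_of_neg (by linarith) hc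
    linarith
  -- second moments
  have hxi : ∀ i : Fin n, Integrable (fun x : E n => x i ^ 2) μ := fun i => by
    have h := (sq_int ha hsub (EuclideanSpace.single i (1 : ℝ)) (by simp)).1
    refine h.congr (Eventually.of_forall fun x => ?_)
    simp only
    rw [EuclideanSpace.inner_single_right]
    simp
  have hx2 : Integrable (fun x : E n => ‖x‖ ^ 2) μ := by
    refine (integrable_finset_sum Finset.univ fun i _ => hxi i).congr (Eventually.of_forall fun x => ?_)
    simp only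
    rw [EuclideanSpace.norm_sq_eq]
    exact Finset.sum_congr rfl fun i _ => by rw [Real.norm_eq_abs, sq_abs]
  have huc : ∀ i, Continuous (ui T i) := fun i => (ui_smooth hT i).continuous
  have hu2 : ∀ i, Integrable (fun x => ui T i x ^ 2) μ := fun i => by
    set A := |ui T i 0| with hA
    set L := √(n * M ^ 2) with hL
    refine ((integrable_const (2 * A ^ 2)).add (hx2.const_mul (2 * L ^ 2))).mono'
      ((huc i).pow 2).aestronglyMeasurable (Eventually.of_forall fun x => ?_)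
    rw [Real.norm_eq_abs, abs_of_nonneg (sq_nonneg _)]
    simp only [Pi.add_apply]
    have h1 := ui_bd hT hM i x
    have h2 : ui T i x ^ 2 ≤ (A + L * ‖x‖) ^ 2 := by
      rw [← sq_abs (ui T i x)]
      exact pow_le_pow_left₀ (abs_nonneg _) h1 2
    nlinarith [sq_nonneg (A - L * ‖x‖)]
  have hu1 : ∀ i, Integrable (ui T i) μ := fun i => by
    refine ((integrable_const (1 : ℝ)).add (hu2 i)).mono' (huc i).aestronglyMeasurable
      (Eventually.of_forall fun x => ?_)
    rw [Real.norm_eq_abs]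
    simp only [Pi.add_apply]
    nlinarith [sq_nonneg (|ui T i x| - 1), sq_abs (ui T i x)]
  have hgi : ∀ i, Integrable (fun x => ‖gradient (ui T i) x‖ ^ 2) μ := fun i => by
    have hc : Continuous fun x => ‖gradient (ui T i) x‖ ^ 2 := by
      have h1 : Continuous fun x => fderiv ℝ (ui T i) x := (ui_smooth hT i).continuous_fderiv (by simp)
      have h2 : (fun x => ‖gradient (ui T i) x‖ ^ 2) = fun x => ‖fderiv ℝ (ui T i) x‖ ^ 2 := by
        funext x
        rw [H607.norm_grad]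
      rw [h2]
      exact h1.norm.pow 2
    refine Integrable.mono' (integrable_const (√(n * M ^ 2) ^ 2)) hc.aestronglyMeasurable
      (Eventually.of_forall fun x => ?_)
    rw [Real.norm_eq_abs, abs_of_nonneg (sq_nonneg _)]
    exact pow_le_pow_left₀ (norm_nonneg _) (ui_grad_bd hT hM i x) 2
  -- Poincaré
  have hvar : ∀ i, (∫ x, ui T i x ^ 2 ∂μ) - (∫ x, ui T i x ∂μ) ^ 2 ≤
      Λ * ∫ x, ‖gradient (ui T i) x‖ ^ 2 ∂μ := fun i => by
    have h := H607.ext hx2 Λ (1 : Matrix (Fin n) (Fin n) ℝ) (fun f hf hc => by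
      have := hP f hf hc
      simpa only [norm_sq_form] using this) ((ui_smooth hT i).of_le (by simp)) (L := √(n * M ^ 2))
      (ui_grad_bd hT hM i)
    simpa only [norm_sq_form] using h
  -- the mean
  set m : Fin n → ℝ := fun i => ∫ x, ui T i x ∂μ with hm
  have hmean : ∑ i, m i ^ 2 ≤ 6 * a ^ 2 * H := by
    set v : E n := WithLp.toLp 2 m with hv
    have hvn : ‖v‖ ^ 2 = ∑ i, m i ^ 2 := by
      rw [EuclideanSpace.norm_sq_eq]
      exact Finset.sum_congr rfl fun i _ => by rw [Real.norm_eq_abs, sq_abs]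
    by_cases h0 : v = 0
    · rw [← hvn, h0, norm_zero]
      have : 0 ≤ 6 * a ^ 2 * H := by positivity
      simpa using this
    have hn : ‖v‖ ≠ 0 := norm_ne_zero_iff.2 h0
    set θ : E n := (‖v‖)⁻¹ • v with hθ
    have hθ1 : ‖θ‖ = 1 := by rw [hθ, norm_smul, norm_inv, norm_norm, inv_mul_cancel₀ hn]
    have hX : Integrable (fun x : E n => (inner ℝ x θ : ℝ)) μ := by
      refine ((integrable_const (1 : ℝ)).add (sq_int ha hsub θ hθ1).1).mono' (by fun_prop)
        (Eventually.of_forall fun x => ?_)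
      rw [Real.norm_eq_abs]
      simp only [Pi.add_apply]
      nlinarith [sq_nonneg (|(inner ℝ x θ : ℝ)| - 1), sq_abs (inner ℝ x θ : ℝ)]
    have hpt : ∀ x, (inner ℝ (T x) θ : ℝ) - inner ℝ x θ = ∑ i, θ i * ui T i x := by
      intro x
      rw [← inner_sub_left, PiLp.inner_apply]
      refine Finset.sum_congr rfl fun i _ => ?_
      simp [ui, mul_comm]
    have hsI : Integrable (fun x => ∑ i, θ i * ui T i x) μ :=
      integrable_finset_sum _ fun i _ => (hu1 i).const_mul _
    have hTX : Integrable (fun x : E n => (inner ℝ (T x) θ : ℝ)) μ := by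
      refine (hsI.add hX).congr (Eventually.of_forall fun x => ?_)
      simp only [Pi.add_apply]
      rw [← hpt x]
      ring
    have hDv : (∫ x, (inner ℝ (T x) θ : ℝ) ∂μ) - ∫ x, (inner ℝ x θ : ℝ) ∂μ = ‖v‖ := by
      rw [← integral_sub hTX hX]
      have e1 : ∫ x, ((inner ℝ (T x) θ : ℝ) - inner ℝ x θ) ∂μ = ∫ x, ∑ i, θ i * ui T i x ∂μ :=
        integral_congr_ae (Eventually.of_forall hpt)
      rw [e1, integral_finset_sum _ fun i _ => (hu1 i).const_mul _]
      have e2 : ∀ i, ∫ x, θ i * ui T i x ∂μ = (‖v‖)⁻¹ * m i ^ 2 := by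
        intro i
        rw [integral_const_mul]
        have : θ i = (‖v‖)⁻¹ * m i := by simp [hθ, hv]
        rw [this]
        ring
      simp only [e2]
      rw [← Finset.mul_sum, ← hvn]
      field_simp
    have h := mean_bd ha hsub hT θ hθ1 hg hg0 hmap hint hH (by rw [hDv]; exact norm_nonneg _)
    rw [hDv, hvn] at h
    exact h
  -- conclusion
  have hnorm : ∀ x, ‖T x - x‖ ^ 2 = ∑ i, ui T i x ^ 2 := by
    intro x
    rw [EuclideanSpace.norm_sq_eq]
    refine Finset.sum_congr rfl fun i _ => ?_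
    rw [Real.norm_eq_abs, sq_abs]
    simp [ui]
  simp only [hnorm]
  rw [integral_finset_sum _ fun i _ => hu2 i]
  have h1 : ∑ i, ∫ x, ui T i x ^ 2 ∂μ ≤ ∑ i, (m i ^ 2 + Λ * ∫ x, ‖gradient (ui T i) x‖ ^ 2 ∂μ) :=
    Finset.sum_le_sum fun i _ => by
      have := hvar i
      simp only [hm]
      linarith
  rw [Finset.sum_add_distrib, ← Finset.mul_sum] at h1
  have h2 : ∑ i, ∫ x, ‖gradient (ui T i) x‖ ^ 2 ∂μ = ∫ x, hs T x ∂μ := by
    rw [← integral_finset_sum _ fun i _ => hgi i]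
    exact integral_congr_ae (Eventually.of_forall fun x => (hs_grad hT x).symm)
  rw [h2] at h1
  have h3 := mul_le_mul_of_nonneg_left hent hΛ
  have h4 : 6 * a ^ 2 * H ≤ 6 * M * a ^ 2 * H := by
    have : a ^ 2 * H ≤ M * (a ^ 2 * H) := le_mul_of_one_le_left (by positivity) hM
    linarith
  linarith

end main

end Vale.Agent.P245.H663
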